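import Vale.Agent.Lib.P199.Amen

/-! P199 (Kurosh): the algebra generated by an elementary amenable group of units of an algebraic
algebra is locally finite. -/

namespace Vale.Agent.Results.P199.ElementaryAmenable

open Vale.Agent.P199

theorem result :
    (∀ (k A : Type) [Field k] [Ring A] [Algebra k A], (∀ x : A, IsAlgebraic k x) →
      ∀ G : Subgroup Aˣ, ElemAmenable G → ∀ F : Set A, F.Finite →
        F ⊆ (Algebra.adjoin k (Units.val '' (G : Set Aˣ)) : Set A) →
        FiniteDimensional k (Algebra.adjoin k F)) ∧
    (∀ (Γ : Type) [Group Γ] (G : Subgroup Γ), Group.IsSolvable G → ElemAmenable G) :=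
  ⟨fun _ _ _ _ _ halg G hG => locFin_elem halg G hG, fun _ _ G hG => elem_solvable G hG⟩

end Vale.Agent.Results.P199.ElementaryAmenable
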