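import Vale.Agent.Lib.P199.Solv

/-! P199 (Kurosh): the algebra generated by a solvable group of units of an algebraic algebra is
locally finite; in particular Kurosh's problem has a positive answer for division rings generated
by solvable groups. -/

namespace Vale.Agent.Results.P199.Solvable

open Vale.Agent.P199

theorem result (k A : Type) [Field k] [Ring A] [Algebra k A] (halg : ∀ x : A, IsAlgebraic k x) :
    (∀ G : Subgroup Aˣ, Group.IsSolvable G → ∀ F : Set A, F.Finite →
      F ⊆ (Algebra.adjoin k (Units.val '' (G : Set Aˣ)) : Set A) →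
      FiniteDimensional k (Algebra.adjoin k F)) ∧
    (∀ N G : Subgroup Aˣ, N ≤ G → (∀ a ∈ G, ∀ b ∈ G, a * b * a⁻¹ * b⁻¹ ∈ N) →
      (∀ F : Set A, F.Finite → F ⊆ (Algebra.adjoin k (Units.val '' (N : Set Aˣ)) : Set A) →
        FiniteDimensional k (Algebra.adjoin k F)) →
      ∀ F : Set A, F.Finite → F ⊆ (Algebra.adjoin k (Units.val '' (G : Set Aˣ)) : Set A) →
        FiniteDimensional k (Algebra.adjoin k F)) :=
  ⟨fun G hG => locFin_solvable halg G hG,
    fun N G hNG hc hN => locFin_abelian halg N G hNG hc hN⟩

end Vale.Agent.Results.P199.Solvable
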