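import Vale.Agent.Lib.P199.Fin

/-! P199 (Kurosh): algebras generated by two quadratic elements; normalizing elements. -/

namespace Vale.Agent.Results.P199.TwoQuadratic

open Vale.Agent.P199

theorem result (k D : Type) [Field k] [DivisionRing D] [Algebra k D]
    (halg : ∀ x : D, IsAlgebraic k x) :
    (∀ (a b : D) (α β γ δ : k), a * a = α • a + β • (1 : D) → b * b = γ • b + δ • (1 : D) →
      FiniteDimensional k (Algebra.adjoin k {a, b})) ∧
    (∀ (B : Subalgebra k D), FiniteDimensional k B → ∀ g : D,
      (∀ x ∈ B, ∃ y ∈ B, g * x = y * g) →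
      FiniteDimensional k (Algebra.adjoin k ((B : Set D) ∪ {g}))) :=
  ⟨fun a b α β γ δ ha hb => two_quadratic halg a b α β γ δ ha hb,
    fun B hB g hg => add_normalizing halg B hB g hg⟩

end Vale.Agent.Results.P199.TwoQuadratic
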